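import Vale.Agent.P214.Main

open MeasureTheory Set Vale.Agent.P214

namespace Vale.Agent.Results.P214.DiscreteGauss

theorem result (m n : ℕ) (hm : 1 ≤ m) (U E : Set (EuclideanSpace ℝ (Fin (m + n))))
    (hU : IsOpen U) (θ : EuclideanSpace ℝ (Fin (m + n)) → ℕ)
    (T : EuclideanSpace ℝ (Fin (m + n)) → Submodule ℝ (EuclideanSpace ℝ (Fin (m + n))))
    (h : IsStatVar m U E θ T) :
    ((∃ K : Set (Submodule ℝ (EuclideanSpace ℝ (Fin (m + n)))), K.Finite ∧
        ∀ᵐ x ∂weight m E θ, T x ∈ K) →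
      dimH (NonFlat m U (weight m E θ)) ≤ ((m - 1 : ℕ) : ENNReal)) ∧
    (μH[m] : Measure (EuclideanSpace ℝ (Fin (m + n))))
      {x | x ∈ NonFlat m U (weight m E θ) ∧ Isolated (weight m E θ) T x} = 0 ∧
    ((∀ᵐ x ∂weight m E θ, Isolated (weight m E θ) T x) →
      (μH[m] : Measure (EuclideanSpace ℝ (Fin (m + n)))) (NonFlat m U (weight m E θ)) = 0) :=
  ⟨fun ⟨_, hK, hK'⟩ => h.dim hU hm (K := hK.toFinset) (hK'.mono fun _ hx => hK.mem_toFinset.2 hx),
    h.null hU (B := {x | Isolated (weight m E θ) T x}) (Filter.Eventually.of_forall fun _ hx => hx),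
    fun hI => by simpa using h.null hU (B := univ) (hI.mono fun _ hx _ => hx)⟩

end Vale.Agent.Results.P214.DiscreteGauss
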